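import Vale.Agent.P032.S5.H25.Meet
import Vale.Agent.P032.S5.H394.Ends

/-!
# P032: D-star pairs: the directions of the arcs as angles
-/

open Set Filter Topology Metric

noncomputable section

namespace Vale.Agent.P032.Six

variable {U : Fin 6 → Set ℂ} {T : ℂ → Set (Fin 6)}

/-- the angles of the points of the circle about `z` with palette in `T z`; the angle is measured
from the direction `I * n` -/
def OPsi (T : ℂ → Set (Fin 6)) (z n : ℂ) : Set ℝ := {ψ | T (z + Complex.I * n * cis ψ) ⊆ T z}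

theorem cis_add25 (s t : ℝ) : cis (s + t) = cis s * cis t := cis_add394 s t

theorem offS_of_psi {z n : ℂ} (hn : ‖n‖ = 1) {ψ : ℝ} (hψ : ψ ∉ closure (OPsi T z n)) :
    OffS T z (z + Complex.I * n * cis ψ) := by
  have h1 : ∀ᶠ s in 𝓝 ψ, s ∉ OPsi T z n := by
    have := isClosed_closure.isOpen_compl.mem_nhds hψ
    filter_upwards [this] with s hs hs'
    exact hs (subset_closure hs')
  have hd : dist (z + Complex.I * n * cis ψ) z = 1 := by
    rw [dist_eq_norm, add_sub_cancel_left, norm_mul, norm_mul, Complex.norm_I, hn, norm_cis]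
    norm_num
  refine (eventually_circle hd).2 ?_
  have h2 : Tendsto (fun t : ℝ => ψ + t) (𝓝 0) (𝓝 ψ) := by
    have hc : Continuous fun t : ℝ => ψ + t := by fun_prop
    have := hc.tendsto 0
    rwa [add_zero] at this
  filter_upwards [h2.eventually h1] with t ht hcon
  refine ht ?_
  show T (z + Complex.I * n * cis (ψ + t)) ⊆ T z
  rw [cis_add25]
  rw [add_sub_cancel_left, mul_assoc] at hcon
  exact hcon

theorem cis_of25 (a : ℝ) {c s : ℝ} (hc : Real.cos a = c) (hs : Real.sin a = s) :
    cis a = ⟨c, s⟩ := by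
  refine Complex.ext ?_ ?_
  · rw [cis, Complex.exp_ofReal_mul_I_re]; exact hc
  · rw [cis, Complex.exp_ofReal_mul_I_im]; exact hs

theorem cis_third25 : cis (Real.pi / 3) = ⟨1 / 2, √3 / 2⟩ :=
  cis_of25 _ Real.cos_pi_div_three Real.sin_pi_div_three

theorem cis_sixth25 : cis (Real.pi / 6) = ⟨√3 / 2, 1 / 2⟩ :=
  cis_of25 _ Real.cos_pi_div_six Real.sin_pi_div_six

theorem sqrt3_sq25 : √3 * √3 = (3 : ℝ) := Real.mul_self_sqrt (by norm_num)

theorem om_third25 : cis (Real.pi / 3) ^ 2 = cis (Real.pi / 3) - 1 := by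
  rw [cis_third25]
  have := sqrt3_sq25
  refine Complex.ext ?_ ?_
  · simp [sq]; nlinarith
  · simp [sq]; ring

namespace DS

variable {z y : ℂ} {A B : Set (Fin 6)}

/-- **The arcs come to one of the two directions on both sides.** -/
theorem meets_psi (h : Irr U T) (hmin : MinF U T) (D : DS T z y A B)
    (hH : ∀ x, dist x z < 4 → 4 ≤ (T x).ncard → ∃ A', Harm T x A')
    (hside : ∃ m ∈ T z \ A, ∀ᶠ p in 𝓝 z, 1 < dist p y → m ∉ T p) :
    (-(Real.pi / 6) ∈ closure (OPsi T z (y - z)) ∨ Real.pi / 6 ∈ closure (OPsi T z (y - z))) ∧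
      (5 * Real.pi / 6 ∈ closure (OPsi T z (y - z)) ∨
        7 * Real.pi / 6 ∈ closure (OPsi T z (y - z))) := by
  have hn : ‖y - z‖ = 1 := by rw [← dist_eq_norm]; exact D.d
  have e1 : Complex.I * cis (-(Real.pi / 6)) = cis (Real.pi / 3) := by
    rw [cis_third25, cis_of25 (-(Real.pi / 6)) (c := √3 / 2) (s := -(1 / 2))
      (by rw [Real.cos_neg, Real.cos_pi_div_six]) (by rw [Real.sin_neg, Real.sin_pi_div_six])]
    refine Complex.ext ?_ ?_ <;> simp
  have e2 : Complex.I * cis (Real.pi / 6) = cis (Real.pi / 3) ^ 2 := by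
    rw [om_third25, cis_third25, cis_sixth25]
    refine Complex.ext ?_ ?_ <;> simp
    norm_num
  have hw := om_third25
  have hw' : (1 - cis (Real.pi / 3)) ^ 2 = (1 - cis (Real.pi / 3)) - 1 := by
    linear_combination hw
  have e3 : Complex.I * cis (5 * Real.pi / 6) = (1 - cis (Real.pi / 3)) ^ 2 := by
    rw [hw', cis_third25, cis_of25 (5 * Real.pi / 6) (c := -(√3 / 2)) (s := 1 / 2)
      (by rw [show 5 * Real.pi / 6 = Real.pi - Real.pi / 6 by ring, Real.cos_pi_sub,
        Real.cos_pi_div_six])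
      (by rw [show 5 * Real.pi / 6 = Real.pi - Real.pi / 6 by ring, Real.sin_pi_sub,
        Real.sin_pi_div_six])]
    refine Complex.ext ?_ ?_ <;> simp
  have e4 : Complex.I * cis (7 * Real.pi / 6) = 1 - cis (Real.pi / 3) := by
    rw [cis_third25, cis_of25 (7 * Real.pi / 6) (c := -(√3 / 2)) (s := -(1 / 2))
      (by rw [show 7 * Real.pi / 6 = Real.pi / 6 + Real.pi by ring, Real.cos_add_pi,
        Real.cos_pi_div_six])
      (by rw [show 7 * Real.pi / 6 = Real.pi / 6 + Real.pi by ring, Real.sin_add_pi,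
        Real.sin_pi_div_six])]
    refine Complex.ext ?_ ?_ <;> simp
    norm_num
  constructor
  · by_contra hcon
    push Not at hcon
    have o1 := offS_of_psi hn hcon.1
    have o2 := offS_of_psi hn hcon.2
    rw [mul_comm Complex.I, mul_assoc, e1] at o1
    rw [mul_comm Complex.I, mul_assoc, e2] at o2
    exact D.meets h hmin hw hH hside o1 o2
  · by_contra hcon
    push Not at hcon
    have o1 := offS_of_psi hn hcon.1
    have o2 := offS_of_psi hn hcon.2
    rw [mul_comm Complex.I, mul_assoc, e3] at o1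
    rw [mul_comm Complex.I, mul_assoc, e4] at o2
    exact D.meets h hmin hw' hH hside o2 o1

end DS

end Vale.Agent.P032.Six
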