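import Vale.Agent.P032.S5.H25.MeetPsi
import Vale.Agent.P032.S5.H306.Defs
import Vale.Agent.P032.S5.H913.Hull

/-!
# P032: D-star pairs: the corner lemma in the frame without D-points
-/

open Set Filter Topology Metric

noncomputable section

namespace Vale.Agent.P032.Six

variable {U : Fin 6 → Set ℂ} {T : ℂ → Set (Fin 6)}

theorem offS_of_dir {z ξ : ℂ} (hξ : ξ ∉ closure (Dir T z)) : OffS T z (z + ξ) := by
  have h1 : ∀ᶠ s in 𝓝 ξ, s ∉ Dir T z := by
    filter_upwards [isClosed_closure.isOpen_compl.mem_nhds hξ] with s hs hs'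
    exact hs (subset_closure hs')
  have h2 : Tendsto (fun q : ℂ => q - z) (𝓝 (z + ξ)) (𝓝 ξ) := by
    have hc : Continuous fun q : ℂ => q - z := by fun_prop
    have := hc.tendsto (z + ξ)
    rwa [add_sub_cancel_left] at this
  filter_upwards [mem_nhdsWithin_of_mem_nhds (h2.eventually h1), self_mem_nhdsWithin]
    with q hq hqz hcon
  have hqz : dist q z = 1 := hqz
  refine hq ⟨by rw [← dist_eq_norm]; exact hqz, ?_⟩
  rw [add_sub_cancel]
  exact hcon

/-- a rotation by `± π / 3` -/
theorem om_of {w : ℂ} (h1 : ‖w‖ = 1) (h2 : ‖w - 1‖ = 1) : w ^ 2 = w - 1 := by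
  have e1 : w.re ^ 2 + w.im ^ 2 = 1 := by
    have := Complex.sq_norm w
    rw [h1, Complex.normSq_apply] at this
    nlinarith
  have e2 : (w.re - 1) ^ 2 + w.im ^ 2 = 1 := by
    have := Complex.sq_norm (w - 1)
    rw [h2, Complex.normSq_apply] at this
    simp at this
    nlinarith
  have e3 : w.re = 1 / 2 := by nlinarith
  refine Complex.ext ?_ ?_
  · simp only [sq, Complex.mul_re, Complex.sub_re, Complex.one_re]
    rw [e3] at e1 ⊢
    nlinarith
  · simp only [sq, Complex.mul_im, Complex.sub_im, Complex.one_im]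
    rw [e3]
    ring

namespace DP

variable {z y : ℂ} {A B : Set (Fin 6)}

theorem toDS (P : DP T z y A B) : DS T z y A B :=
  ⟨P.hz, P.hy, by rw [dist_comm]; exact P.d, P.hC, by
    rw [P.cz]; exact disjoint_compl_right⟩

theorem side25 (F : Fr U T) (P : DP T z y A B) :
    ∃ m ∈ T z \ A, ∀ᶠ p in 𝓝 z, 1 < dist p y → m ∉ T p :=
  P.hz.side F.irr P.hy P.hC (by rw [dist_comm]; exact P.d)

theorem harm4 (F : Fr U T) (x : ℂ) (hx : 4 ≤ (T x).ncard) : ∃ A', Harm T x A' :=
  F.harm x (le_antisymm (F.le4 x) hx)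

/-- **Corner lemma** -/
theorem corner25 (F : Fr U T) (P : DP T z y A B) {w : ℂ} (hwz : dist w z = 1)
    (hwy : dist w y = 1) : w - z ∈ closure (Dir T z) ∨ w - y ∈ closure (Dir T z) := by
  by_contra hcon
  push Not at hcon
  have hn : ‖y - z‖ = 1 := by rw [← dist_eq_norm, dist_comm]; exact P.d
  have hyz : y - z ≠ 0 := by
    intro h5; rw [h5, norm_zero] at hn; exact zero_ne_one hn
  set v := (w - z) / (y - z) with hv
  have e1 : (y - z) * v = w - z := by rw [hv]; field_simp
  have h1 : ‖v‖ = 1 := by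
    rw [hv, norm_div, hn, div_one, ← dist_eq_norm]; exact hwz
  have h2 : ‖v - 1‖ = 1 := by
    have : v - 1 = (w - y) / (y - z) := by
      rw [hv]; field_simp; ring
    rw [this, norm_div, hn, div_one, ← dist_eq_norm]; exact hwy
  have hom := om_of h1 h2
  have e2 : (y - z) * v ^ 2 = w - y := by
    rw [hom, mul_sub, e1]; ring
  refine P.toDS.meets F.irr F.min hom (fun x _ => harm4 F x) (P.side25 F) ?_ ?_
  · rw [e1]; exact offS_of_dir hcon.1
  · rw [e2]; exact offS_of_dir hcon.2

/-- the corner lemma in the form of `dstar_end` -/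
theorem meets_DO (F : Fr U T) (P : DP T z y A B) :
    (-(Real.pi / 6) ∈ closure (DO T (y - z) z) ∨ Real.pi / 6 ∈ closure (DO T (y - z) z)) ∧
      (-(Real.pi / 6) + Real.pi ∈ closure (DO T (y - z) z) ∨
        Real.pi / 6 + Real.pi ∈ closure (DO T (y - z) z)) := by
  have h1 := P.toDS.meets_psi F.irr F.min (fun x _ => harm4 F x) (P.side25 F)
  have e1 : -(Real.pi / 6) + Real.pi = 5 * Real.pi / 6 := by ring
  have e2 : Real.pi / 6 + Real.pi = 7 * Real.pi / 6 := by ring
  rw [e1, e2]
  exact h1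

end DP

end Vale.Agent.P032.Six
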