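import Vale.Agent.P032.S5.H205.Contact
import Vale.Agent.P032.S5.H827.Edge

/-!
# P032: D-star pairs, flips and the triangle

`DS T z y A B` : two harmless points `z`, `y` at distance one with `T z \ A = T y \ B` and `B`
disjoint from `T z`.  `DS.meets` : the arcs of such a pair come to one of the two directions at
angle `π / 3`, `2 π / 3` to `y - z`.
-/

open Set Filter Topology Metric

noncomputable section

namespace Vale.Agent.P032.Six

variable {U : Fin 6 → Set ℂ} {T : ℂ → Set (Fin 6)}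

/-- partners of a colour carried by the circle near `p` -/
theorem Irr.wp (h : Irr U T) {u p x : ℂ} {t : Fin 6} (hu : dist p u = 1)
    (ht : ∀ᶠ q in 𝓝[sphere u 1] p, t ∈ T q) (hx : dist p x = 1) (hxt : t ∈ T x) :
    x = u ∨ x + u = 2 * p :=
  h.mx.partner_line hu (ht.mono fun q hq => h.sub q hq) hx (h.sub x hxt)

/-- near a point of the circle with palette in `T z` the circle carries `A` -/
theorem Harm.near_sub (h : Irr U T) {z v : ℂ} {A : Set (Fin 6)} (hz : Harm T z A)
    (hv : T v ⊆ T z) : ∀ᶠ q in 𝓝[sphere z 1] v, A ⊆ T q := by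
  filter_upwards [mem_nhdsWithin_of_mem_nhds (h.nhd v), self_mem_nhdsWithin] with q h1 h2
  exact hz.h1 q h2 (h1.trans hv)

/-- a D-star pair -/
structure DS (T : ℂ → Set (Fin 6)) (z y : ℂ) (A B : Set (Fin 6)) : Prop where
  hz : Harm T z A
  hy : Harm T y B
  d : dist y z = 1
  C : T z \ A = T y \ B
  dis : Disjoint B (T z)

/-- no palette in `T z` near `p` on the unit circle about `z` -/
def OffS (T : ℂ → Set (Fin 6)) (z p : ℂ) : Prop := ∀ᶠ q in 𝓝[sphere z 1] p, ¬ T q ⊆ T z

/-- every colour of `B` is absent at points of the circle arbitrarily near `p` -/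
def Fl (T : ℂ → Set (Fin 6)) (z p : ℂ) (B : Set (Fin 6)) : Prop :=
  ∀ e ∈ B, ∃ᶠ q in 𝓝[sphere z 1] p, e ∉ T q

theorem tendsto_add_circle (z p w : ℂ) :
    Tendsto (fun q => q + w) (𝓝[sphere z 1] p) (𝓝[sphere (z + w) 1] (p + w)) := by
  refine tendsto_nhdsWithin_iff.2 ⟨?_, ?_⟩
  · have hc : Continuous fun q : ℂ => q + w := by fun_prop
    exact (hc.tendsto p).mono_left nhdsWithin_le_nhds
  · filter_upwards [self_mem_nhdsWithin] with q hq
    rw [mem_sphere, dist_add_right]
    exact hq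

theorem tendsto_rot_circle (z p : ℂ) {w : ℂ} (hw : ‖w‖ = 1) :
    Tendsto (fun q => z + (q - z) * w) (𝓝[sphere z 1] p) (𝓝[sphere z 1] (z + (p - z) * w)) := by
  refine tendsto_nhdsWithin_iff.2 ⟨?_, ?_⟩
  · have hc : Continuous fun q : ℂ => z + (q - z) * w := by fun_prop
    exact (hc.tendsto p).mono_left nhdsWithin_le_nhds
  · filter_upwards [self_mem_nhdsWithin] with q hq
    have hq : dist q z = 1 := hq
    rw [mem_sphere, dist_eq_norm, add_sub_cancel_left, norm_mul, hw, ← dist_eq_norm, hq, one_mul]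

theorem om_norm {w : ℂ} (hw : w ^ 2 = w - 1) : ‖w‖ = 1 := by
  have h3 : w ^ 3 = -1 := by linear_combination (w + 1) * hw
  have h4 : ‖w‖ ^ 3 = 1 := by rw [← norm_pow, h3, norm_neg, norm_one]
  have h5 := norm_nonneg w
  nlinarith [sq_nonneg (‖w‖ - 1), sq_nonneg (‖w‖ + 1)]

theorem om_norm' {w : ℂ} (hw : w ^ 2 = w - 1) : ‖1 - w‖ = 1 := by
  refine om_norm (w := 1 - w) ?_
  linear_combination hw

theorem om_ne {w : ℂ} (hw : w ^ 2 = w - 1) : w ≠ 0 ∧ w ≠ 1 ∧ w ≠ 2 ∧ w ≠ -1 ∧ 2 * w ≠ 1 := by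
  refine ⟨?_, ?_, ?_, ?_, ?_⟩
  · rintro rfl; norm_num at hw
  · rintro rfl; norm_num at hw
  · rintro rfl; norm_num at hw
  · rintro rfl; norm_num at hw
  · intro h
    have h1 : w = 1 / 2 := by linear_combination h / 2
    rw [h1] at hw
    norm_num at hw

theorem OffS.near {z p : ℂ} (h : OffS T z p) : ∀ᶠ q in 𝓝[sphere z 1] p, OffS T z q :=
  eventually_eventually_nhdsWithin.2 h

namespace DS

variable {z y : ℂ} {A B : Set (Fin 6)}

theorem dis' (D : DS T z y A B) : Disjoint A (T y) := by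
  rw [Set.disjoint_left]
  intro i hi hiy
  by_cases hiB : i ∈ B
  · exact Set.disjoint_left.1 D.dis hiB (D.hz.sub hi)
  · have : i ∈ T y \ B := ⟨hiy, hiB⟩
    rw [← D.C] at this
    exact this.2 hi

theorem symm (D : DS T z y A B) : DS T y z B A :=
  ⟨D.hy, D.hz, by rw [dist_comm]; exact D.d, D.C.symm, D.dis'⟩

theorem cov (D : DS T z y A B) (i : Fin 6) : i ∈ B ∨ i ∈ T z := by
  have h1 : (B ∪ T z).ncard = 6 := by
    rw [Set.ncard_union_eq D.dis (Set.toFinite _) (Set.toFinite _), D.hy.cardA, D.hz.card]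
  have h2 : B ∪ T z = univ := by
    refine Set.eq_of_subset_of_ncard_le (subset_univ _) ?_ (Set.toFinite _)
    rw [h1, Set.ncard_univ, Nat.card_eq_fintype_card, Fintype.card_fin]
  have : i ∈ B ∪ T z := by rw [h2]; trivial
  exact this

theorem cov' (D : DS T z y A B) (i : Fin 6) : i ∈ A ∨ i ∈ T y := D.symm.cov i

theorem neB (D : DS T z y A B) : ∃ e, e ∈ B := by
  have : B.Nonempty := by
    rw [← Set.ncard_pos (Set.toFinite _), D.hy.cardA]; norm_num
  exact this

theorem not_sub (D : DS T z y A B) : ¬ T y ⊆ T z := by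
  intro hcon
  obtain ⟨e, he⟩ := D.neB
  exact Set.disjoint_left.1 D.dis he (hcon (D.hy.sub he))

theorem same0 (h : Irr U T) (D : DS T z y A B) {v : ℂ} (hv : dist v z = 1) (hvz : T v ⊆ T z)
    (hne : v + (y - z) ≠ z) : T (v + (y - z)) ⊆ T y := by
  intro i hi
  rcases D.cov' i with hA | hy
  · exfalso
    have h1 : dist v (v + (y - z)) = 1 := by
      rw [dist_eq_norm, show v - (v + (y - z)) = -(y - z) by ring, norm_neg, ← dist_eq_norm]
      exact D.d
    rcases h.wp hv ((D.hz.near_sub h hvz).mono fun q hq => hq hA) h1 hi with h2 | h2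
    · exact hne h2
    · have : v = y := by linear_combination -h2
      exact D.not_sub (this ▸ hvz)
  · exact hy

/-- **The two circles carry their arcs over the same directions.** -/
theorem same (h : Irr U T) (D : DS T z y A B) {v : ℂ} (hv : dist v z = 1) (hvz : T v ⊆ T z) :
    T (v + (y - z)) ⊆ T y := by
  by_cases hne : v + (y - z) = z
  · exfalso
    have h1 : ∀ᶠ q in 𝓝[sphere z 1] v, T q ⊆ T z ∧ T (q + (y - z)) ⊆ T z := by
      have h2 : Tendsto (fun q => q + (y - z)) (𝓝 v) (𝓝 z) := by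
        have hc : Continuous fun q : ℂ => q + (y - z) := by fun_prop
        have := hc.tendsto v
        rwa [hne] at this
      filter_upwards [mem_nhdsWithin_of_mem_nhds (h.nhd v),
        mem_nhdsWithin_of_mem_nhds (h2.eventually (h.nhd z))] with q h3 h4
      exact ⟨h3.trans hvz, h4⟩
    obtain ⟨q, ⟨hq1, hq2⟩, hqz, hqv, -, -⟩ := exists_generic (y := v) hv h1
    have h3 : q + (y - z) ≠ z := fun h4 => hqv (by linear_combination h4 - hne)
    have h4 := D.same0 h hqz hq1 h3
    have h5 : dist (q + (y - z)) y = 1 := by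
      rw [dist_eq_norm, show q + (y - z) - y = q - z by ring, ← dist_eq_norm]; exact hqz
    obtain ⟨e, he⟩ := D.neB
    exact Set.disjoint_left.1 D.dis he (hq2 (D.hy.h1 _ h5 h4 he))
  · exact D.same0 h hv hvz hne

theorem off (h : Irr U T) (D : DS T z y A B) {p : ℂ} (hp : OffS T z p) :
    OffS T y (p + (y - z)) := by
  have h1 := tendsto_add_circle y (p + (y - z)) (z - y)
  rw [show y + (z - y) = z by ring, show p + (y - z) + (z - y) = p by ring] at h1
  filter_upwards [h1.eventually hp, self_mem_nhdsWithin] with q hq hqy hcon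
  exact hq (D.symm.same h hqy hcon)

theorem off_y (h : Irr U T) (D : DS T z y A B) : OffS T z y := by
  filter_upwards [mem_nhdsWithin_of_mem_nhds (h.nhd y), self_mem_nhdsWithin] with q h1 h2 h3
  have h4 := D.hz.h1 q h2 h3
  obtain ⟨a, ha⟩ := D.symm.neB
  exact Set.disjoint_left.1 D.dis' ha (h1 (h4 ha))

theorem off_y' (h : Irr U T) (D : DS T z y A B) : OffS T z (2 * z - y) := by
  have := D.symm.off h (D.symm.off_y h)
  rwa [show z + (z - y) = 2 * z - y by ring] at this

theorem fl_y (h : Irr U T) (D : DS T z y A B) : Fl T z y B := by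
  intro e he
  by_contra hcon
  have h1 : ∀ᶠ q in 𝓝[sphere z 1] y, e ∈ T q := by
    have := not_frequently.1 hcon
    exact this.mono fun q hq => not_not.1 hq
  obtain ⟨p, hp, hJ⟩ := D.hy.arc
  obtain ⟨q, hq, hqy, hqz, hqz2, -⟩ := exists_generic (y := z) hp hJ
  have hq : T q = B := hq
  rcases h.wp D.d h1 (x := q) (by rw [dist_comm]; exact hqy) (by rw [hq]; exact he) with h2 | h2
  · exact hqz h2
  · exact hqz2 h2

theorem other (D : DS T z y A B) {f : Fin 6} (hf : f ∈ B) : ∃ e ∈ B, e ≠ f ∧ ∀ i ∈ B, i = e ∨ i = f := by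
  obtain ⟨a, b, hab, hB⟩ := Set.ncard_eq_two.1 D.hy.cardA
  subst hB
  rcases hf with rfl | hf
  · exact ⟨b, by simp, hab.symm, fun i hi => by
      rcases hi with rfl | hi
      · right; rfl
      · left; exact hi⟩
  · have hf : f = b := hf
    subst hf
    exact ⟨a, by simp, hab, fun i hi => by
      rcases hi with rfl | hi
      · left; rfl
      · right; exact hi⟩

theorem fl_rot (h : Irr U T) (D : DS T z y A B) {p w : ℂ} (hw : w ^ 2 = w - 1)
    (hoff : OffS T z p) (hfl : Fl T z p B) : Fl T z (z + (p - z) * w) B := by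
  intro f hf
  obtain ⟨e, he, hef, hef2⟩ := D.other hf
  refine (tendsto_rot_circle z p (om_norm hw)).frequently ?_
  refine (((hfl e he).and_eventually hoff.near).and_eventually self_mem_nhdsWithin).mono ?_
  rintro q ⟨⟨heq, hoq⟩, hqz⟩ hfq
  have hqz : dist q z = 1 := hqz
  have h1 : ∀ᶠ q' in 𝓝[sphere z 1] q, f ∈ T q' := by
    filter_upwards [hoq, mem_nhdsWithin_of_mem_nhds (h.nhd q)] with q' h2 h3
    obtain ⟨i, hi, hiz⟩ := Set.not_subset.1 h2
    rcases hef2 i ((D.cov i).resolve_right hiz) with rfl | rfl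
    · exact absurd (h3 hi) heq
    · exact hi
  have hn : q - z ≠ 0 := by
    intro h5
    rw [dist_eq_norm, h5, norm_zero] at hqz
    exact zero_ne_one hqz
  obtain ⟨w0, w1, w2, -, -⟩ := om_ne hw
  have h2 : dist q (z + (q - z) * w) = 1 := by
    rw [dist_eq_norm, show q - (z + (q - z) * w) = (q - z) * (1 - w) by ring, norm_mul,
      om_norm' hw, mul_one, ← dist_eq_norm]
    exact hqz
  rcases h.wp hqz h1 h2 hfq with h3 | h3
  · have h4 : (q - z) * w = 0 := by linear_combination h3
    rcases mul_eq_zero.1 h4 with h5 | h5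
    · exact hn h5
    · exact w0 h5
  · have h4 : (q - z) * (w - 2) = 0 := by linear_combination h3
    rcases mul_eq_zero.1 h4 with h5 | h5
    · exact hn h5
    · exact w2 (by linear_combination h5)

theorem fl_mem (h : Irr U T) (D : DS T z y A B) {p : ℂ} (hoff : OffS T z p)
    (hfl : Fl T z p B) : B ⊆ T p := by
  intro e he
  by_contra hep
  obtain ⟨f, hf, hfe, hef2⟩ := D.other he
  refine (hfl f hf) ?_
  filter_upwards [hoff, mem_nhdsWithin_of_mem_nhds (h.nhd p)] with q h2 h3
  obtain ⟨i, hi, hiz⟩ := Set.not_subset.1 h2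
  rcases hef2 i ((D.cov i).resolve_right hiz) with rfl | rfl
  · exact fun h4 => h4 hi
  · exact absurd (h3 hi) hep

/-- **Triangle**, one half -/
theorem tri (h : Irr U T) (D : DS T z y A B) {w : ℂ} (hwz : dist w z = 1) (hwy : dist w y = 1)
    {A₁ : Set (Fin 6)} (hw : Harm T w A₁) : A₁ ≠ B := by
  rintro rfl
  obtain ⟨p0, hp0, hJ⟩ := hw.arc
  obtain ⟨q1, hq1, hq1w, hq1z, hq1z2, hN⟩ := exists_generic (y := z) hp0 hJ
  have hN2 : {q | T q = A₁} ∩ {q | q + z ≠ 2 * w} ∈ 𝓝[sphere w 1] q1 := by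
    refine inter_mem hN (mem_nhdsWithin_of_mem_nhds ?_)
    exact (isOpen_ne_fun (by fun_prop) (by fun_prop)).mem_nhds hq1z2
  obtain ⟨p, ⟨hpB, hpz2⟩, hpw, hpy, hpy2, hN3⟩ := exists_generic (y := y) hq1w hN2
  have hpB : T p = A₁ := hpB
  have hJp : ∀ᶠ q in 𝓝[sphere w 1] p, A₁ ⊆ T q := by
    filter_upwards [hN3] with q hq
    have : T q = A₁ := hq.1
    rw [this]
  set x := z + (p - w) with hx
  have hxz : dist x z = 1 := by
    rw [dist_eq_norm, hx, add_sub_cancel_left, ← dist_eq_norm]; exact hpw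
  have hpx : dist p x = 1 := by
    rw [dist_eq_norm, hx, show p - (z + (p - w)) = w - z by ring, ← dist_eq_norm]; exact hwz
  have hxT : T x ⊆ T z := by
    intro i hi
    rcases D.cov i with hB | hz
    · exfalso
      rcases h.wp hpw (hJp.mono fun q hq => hq hB) hpx hi with h1 | h1
      · exact hpz2 (by show p + z = 2 * w; rw [hx] at h1; linear_combination h1)
      · have h2 : z = p := by rw [hx] at h1; linear_combination h1
        have h3 := D.hz.card
        rw [h2, hpB, hw.cardA] at h3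
        omega
    · exact hz
  have hx' := D.same h hxz hxT
  have hx'y : dist (x + (y - z)) y = 1 := by
    rw [dist_eq_norm, show x + (y - z) - y = x - z by ring, ← dist_eq_norm]; exact hxz
  obtain ⟨e, he⟩ := D.neB
  have hd : dist (x + (y - z)) p = 1 := by
    rw [dist_eq_norm, hx, show z + (p - w) + (y - z) - p = -(w - y) by ring, norm_neg,
      ← dist_eq_norm]
    exact hwy
  rcases h.wp hx'y ((D.hy.near_sub h hx').mono fun q hq => hq he) hd
    (by rw [hpB]; exact he) with h1 | h1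
  · exact hpy h1
  · exact hpy2 (by rw [hx] at h1; linear_combination -h1)

end DS

end Vale.Agent.P032.Six
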