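import Vale.Agent.P032.S5.H25.Flip

/-!
# P032: D-star pairs: the arcs come to a direction at angle `π / 3` or `2 π / 3`
-/

open Set Filter Topology Metric

noncomputable section

namespace Vale.Agent.P032.Six

variable {U : Fin 6 → Set ℂ} {T : ℂ → Set (Fin 6)}

namespace DS

variable {z y : ℂ} {A B : Set (Fin 6)}

/-- a point with both pairs -/
theorem union (D : DS T z y A B) {w : ℂ} (hw4 : (T w).ncard ≤ 4) (hA : A ⊆ T w) (hB : B ⊆ T w) :
    T w = A ∪ B := by
  refine (Set.eq_of_subset_of_ncard_le (union_subset hA hB) ?_ (Set.toFinite _)).symm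
  rw [Set.ncard_union_eq ?_ (Set.toFinite _) (Set.toFinite _), D.hz.cardA, D.hy.cardA]
  · exact hw4
  · exact (D.dis.mono_right D.hz.sub).symm

/-- the pair of such a point has a colour of `A` -/
theorem mix (D : DS T z y A B) {w : ℂ} {A₁ : Set (Fin 6)} (hw : Harm T w A₁) (hT : T w = A ∪ B)
    (h1 : A₁ ≠ B) : ∃ a ∈ A, a ∈ A₁ := by
  by_contra hcon
  push Not at hcon
  refine h1 (Set.eq_of_subset_of_ncard_le (fun i hi => ?_) (by rw [hw.cardA, D.hy.cardA])
    (Set.toFinite _))
  have := hw.sub hi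
  rw [hT] at this
  rcases this with h2 | h2
  · exact absurd hi (hcon i h2)
  · exact h2

/-- the next point of the hexagon is again a partner -/
theorem next (h : Irr U T) (hmin : MinF U T) (D : DS T z y A B) {w r : ℂ} {A₁ : Set (Fin 6)}
    (hwz : dist w z = 1) (hrz : dist r z = 1) (hrw : dist r w = 1)
    (hne2 : w + z ≠ 2 * r) (hw : Harm T w A₁) (hT : T w = A ∪ B)
    (hA₁ : A₁ ≠ A) (hB₁ : A₁ ≠ B) (hBr : B ⊆ T r)
    (hH : ∀ᶠ x in 𝓝 r, 4 ≤ (T x).ncard → ∃ A', Harm T x A') : DS T z r A B := by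
  obtain ⟨a, haA, haA₁⟩ := D.mix hw hT hB₁
  obtain ⟨e, heB, heA₁⟩ := D.symm.mix hw (by rw [hT, union_comm]) hA₁
  have haB : a ∉ B := fun hh => Set.disjoint_left.1 D.dis hh (D.hz.sub haA)
  have hea : e ≠ a := fun hh => haB (hh ▸ heB)
  have hwne : w ≠ z := by
    rintro rfl; rw [dist_self] at hwz; exact zero_ne_one hwz
  set s : Set (Fin 6) := T w \ {a} with hs
  have haw : a ∈ T w := hw.sub haA₁
  have hs3 : s.ncard = 3 := by
    rw [hs, Set.ncard_sdiff_singleton_of_mem haw, hw.card]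
  have hBs : B ⊆ s := fun i hi => ⟨by rw [hT]; exact Or.inr hi, fun h1 => haB (h1 ▸ hi)⟩
  have hsc : sᶜ ⊆ T z := by
    intro i hi
    rcases D.cov i with h1 | h1
    · exact absurd (hBs h1) hi
    · exact h1
  have hsc3 : sᶜ.ncard = 3 := by
    have := Set.ncard_add_ncard_compl s (Set.toFinite _) (Set.toFinite _)
    rw [Nat.card_eq_fintype_card, Fintype.card_fin] at this
    omega
  have F : Fc T w s := fc_harmless sdiff_subset hw.h1 fun hcon => (hcon haA₁).2 rfl
  obtain ⟨a', ha'A, ha'a, -⟩ := D.symm.other haA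
  have ha's : a' ∈ s := ⟨by rw [hT]; exact Or.inl ha'A, ha'a⟩
  have F' : Fc T z sᶜ := fc_harmless hsc D.hz.h1 fun hcon => hcon ha'A ha's
  have h4 := F.four_le' h F' hwne hrw hrz hne2
  obtain ⟨c1, c2⟩ := F.four_le h F' hwne hrw hrz hne2
  obtain ⟨Ar, hAr⟩ := hH.self_of_nhds h4
  have hc := Set.ncard_inter_add_ncard_sdiff_eq_ncard (T r) s (Set.toFinite _)
  rw [Set.sdiff_eq, hAr.card] at hc
  have hrs : T r ∩ s = B := by
    refine (Set.eq_of_subset_of_ncard_le (t := T r ∩ s) (fun i hi => ⟨hBr hi, hBs hi⟩) ?_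
      (Set.toFinite _)).symm
    rw [D.hy.cardA]; omega
  have ha'B : a' ∉ B := fun hh => Set.disjoint_left.1 D.dis hh (D.hz.sub ha'A)
  have ha'r : a' ∉ T r := by
    intro hh
    have : a' ∈ T r ∩ s := ⟨hh, ha's⟩
    rw [hrs] at this
    exact ha'B this
  have hA₁2 : ∀ i ∈ A₁, i = a ∨ i = e := by
    have h1 : ({a, e} : Set (Fin 6)) = A₁ := by
      refine Set.eq_of_subset_of_ncard_le ?_ ?_ (Set.toFinite _)
      · rintro i (rfl | rfl)
        · exact haA₁
        · exact heA₁
      · rw [hw.cardA, Set.ncard_pair (Ne.symm hea)]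
    intro i hi
    rw [← h1] at hi
    exact hi
  have ha'A₁ : a' ∉ A₁ := by
    intro hh
    rcases hA₁2 a' hh with h1 | h1
    · exact ha'a h1
    · exact ha'B (h1 ▸ heB)
  -- first half
  have hAr1 : Ar ⊆ s := F.pair_sub h F' hwne hs3 hrw hrz hne2 hAr hH
    (Or.inr ⟨A₁, hw, hmin w (by rw [hw.card]), fun hcon =>
      absurd (hcon (show a' ∈ T w \ A₁ from ⟨by rw [hT]; exact Or.inl ha'A, ha'A₁⟩)) ha'r⟩)
  have hArB : Ar = B := by
    refine Set.eq_of_subset_of_ncard_le (fun i hi => ?_) (by rw [hAr.cardA, D.hy.cardA])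
      (Set.toFinite _)
    rw [← hrs]
    exact ⟨hAr.sub hi, hAr1 hi⟩
  -- second half
  have hCr : T z \ A ⊆ T r := by
    by_contra hcon
    have Fw : Fc T w sᶜᶜ := by rw [compl_compl]; exact F
    have h5 : Ar ⊆ sᶜ := F'.pair_sub h Fw hwne.symm hsc3 hrz hrw
      (by rw [add_comm]; exact hne2) hAr hH
      (Or.inr ⟨A, D.hz, hmin z (by rw [D.hz.card]), fun h6 => absurd h6 hcon⟩)
    exact h5 (hArB ▸ heB) (hBs heB)
  rw [hArB] at hAr
  refine ⟨D.hz, hAr, hrz, ?_, D.dis⟩
  refine Set.eq_of_subset_of_ncard_le (fun i hi => ⟨hCr hi, fun h7 => ?_⟩)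
    (by rw [D.hz.cardC, hAr.cardC]) (Set.toFinite _)
  exact Set.disjoint_left.1 D.dis h7 hi.1

/-- the circle about `y` at the common point -/
theorem off2 (h : Irr U T) (D : DS T z y A B) {w : ℂ} (hw : w ^ 2 = w - 1)
    (o2 : OffS T z (z + (y - z) * w ^ 2)) : OffS T y (z + (y - z) * w) := by
  have := D.off h o2
  rwa [show z + (y - z) * w ^ 2 + (y - z) = z + (y - z) * w by
    linear_combination (y - z) * hw] at this

theorem fl1 (h : Irr U T) (D : DS T z y A B) {w : ℂ} (hw : w ^ 2 = w - 1) :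
    Fl T z (z + (y - z) * w) B := D.fl_rot h hw (D.off_y h) (D.fl_y h)

theorem fl1' (h : Irr U T) (D : DS T z y A B) {w : ℂ} (hw : w ^ 2 = w - 1) :
    Fl T y (z + (y - z) * w) A := by
  have hw' : (1 - w) ^ 2 = (1 - w) - 1 := by linear_combination hw
  have := D.symm.fl1 h hw'
  rwa [show y + (z - y) * (1 - w) = z + (y - z) * w by ring] at this

theorem fl2 (h : Irr U T) (D : DS T z y A B) {w : ℂ} (hw : w ^ 2 = w - 1)
    (o1 : OffS T z (z + (y - z) * w)) : Fl T z (z + (y - z) * w ^ 2) B := by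
  have := D.fl_rot h hw o1 (D.fl1 h hw)
  rwa [show z + (z + (y - z) * w - z) * w = z + (y - z) * w ^ 2 by ring] at this

/-- the mixed point of the triangle -/
theorem tip (h : Irr U T) (D : DS T z y A B) {w : ℂ} (hw : w ^ 2 = w - 1)
    (h4 : (T (z + (y - z) * w)).ncard ≤ 4)
    (o1 : OffS T z (z + (y - z) * w)) (o2 : OffS T z (z + (y - z) * w ^ 2)) :
    T (z + (y - z) * w) = A ∪ B :=
  D.union h4 (D.symm.fl_mem h (D.off2 h hw o2) (D.fl1' h hw)) (D.fl_mem h o1 (D.fl1 h hw))

/-- next partner, in terms of the rotation -/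
theorem next_rot (h : Irr U T) (hmin : MinF U T) (D : DS T z y A B) {w : ℂ}
    (hw : w ^ 2 = w - 1) (hH : ∀ x, dist x z < 3 → 4 ≤ (T x).ncard → ∃ A', Harm T x A')
    (o1 : OffS T z (z + (y - z) * w)) (o2 : OffS T z (z + (y - z) * w ^ 2)) :
    DS T z (z + (y - z) * w ^ 2) A B := by
  have hn : ‖y - z‖ = 1 := by rw [← dist_eq_norm]; exact D.d
  have hwn := om_norm hw
  obtain ⟨w0, w1, w2, w3, w4⟩ := om_ne hw
  have hyz : y - z ≠ 0 := by
    intro h5; rw [h5, norm_zero] at hn; exact zero_ne_one hn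
  have d1 : dist (z + (y - z) * w) z = 1 := by
    rw [dist_eq_norm, add_sub_cancel_left, norm_mul, hn, hwn, one_mul]
  have d2 : dist (z + (y - z) * w ^ 2) z = 1 := by
    rw [dist_eq_norm, add_sub_cancel_left, norm_mul, norm_pow, hn, hwn]; norm_num
  have d3 : dist (z + (y - z) * w ^ 2) (z + (y - z) * w) = 1 := by
    rw [dist_eq_norm, show z + (y - z) * w ^ 2 - (z + (y - z) * w) = (y - z) * (w ^ 2 - w) by ring,
      show w ^ 2 - w = -1 by linear_combination hw, norm_mul, hn]
    norm_num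
  have d4 : dist (z + (y - z) * w) y = 1 := by
    rw [dist_eq_norm, show z + (y - z) * w - y = -((y - z) * (1 - w)) by ring, norm_neg, norm_mul,
      hn, om_norm' hw]
    norm_num
  have hle : (T (z + (y - z) * w)).ncard ≤ 4 := by
    by_contra hcon
    obtain ⟨A', hA'⟩ := hH _ (by rw [d1]; norm_num) (by omega)
    rw [hA'.card] at hcon
    omega
  have hT := D.tip h hw hle o1 o2
  have hT4 : (T (z + (y - z) * w)).ncard = 4 := by
    rw [hT, Set.ncard_union_eq ((D.dis.mono_right D.hz.sub).symm) (Set.toFinite _)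
      (Set.toFinite _), D.hz.cardA, D.hy.cardA]
  obtain ⟨A₁, hA₁⟩ := hH (z + (y - z) * w) (by rw [d1]; norm_num) hT4.ge
  refine D.next h hmin d1 d2 d3 (fun h6 => ?_) hA₁ hT (D.symm.tri h d4 d1 hA₁)
    (D.tri h d1 d4 hA₁) (D.fl_mem h o2 (D.fl2 h hw o1)) ?_
  · have h7 : (y - z) * (w * (1 - 2 * w)) = 0 := by linear_combination h6
    rcases mul_eq_zero.1 h7 with h8 | h8
    · exact hyz h8
    · rcases mul_eq_zero.1 h8 with h9 | h9
      · exact w0 h9
      · exact w4 (by linear_combination -h9)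
  · have h5 : ∀ᶠ x in 𝓝 (z + (y - z) * w ^ 2), dist x z < 3 :=
      (continuous_id.dist continuous_const).continuousAt.eventually
        (Iio_mem_nhds (by show dist (z + (y - z) * w ^ 2) z < 3; rw [d2]; norm_num))
    exact h5.mono fun x hx => hH x hx

/-- **The arcs come to one of the two directions.** -/
theorem meets (h : Irr U T) (hmin : MinF U T) (D : DS T z y A B) {w : ℂ}
    (hw : w ^ 2 = w - 1) (hH : ∀ x, dist x z < 4 → 4 ≤ (T x).ncard → ∃ A', Harm T x A')
    (hside : ∃ m ∈ T z \ A, ∀ᶠ p in 𝓝 z, 1 < dist p y → m ∉ T p)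
    (o1 : OffS T z (z + (y - z) * w)) (o2 : OffS T z (z + (y - z) * w ^ 2)) : False := by
  have hn : ‖y - z‖ = 1 := by rw [← dist_eq_norm]; exact D.d
  have hwn := om_norm hw
  have hw' : (1 - w) ^ 2 = (1 - w) - 1 := by linear_combination hw
  obtain ⟨w0, w1, w2, w3, w4⟩ := om_ne hw
  have hyz : y - z ≠ 0 := by
    intro h5; rw [h5, norm_zero] at hn; exact zero_ne_one hn
  have hH3 : ∀ x, dist x z < 3 → 4 ≤ (T x).ncard → ∃ A', Harm T x A' :=
    fun x hx => hH x (by linarith)
  have hH3' : ∀ x, dist x y < 3 → 4 ≤ (T x).ncard → ∃ A', Harm T x A' :=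
    fun x hx => hH x (by have := dist_triangle x y z; linarith [D.d])
  -- the partner of `z`
  have Dr := D.next_rot h hmin hw hH3 o1 o2
  -- the partner of `y`
  have e1 : y + (z - y) * (1 - w) = z + (y - z) * w := by ring
  have e2 : y + (z - y) * (1 - w) ^ 2 = y + (y - z) * w := by
    linear_combination (z - y) * hw
  have Ds : DS T y (y + (y - z) * w) B A := by
    have := D.symm.next_rot h hmin hw' hH3' (by rw [e1]; exact D.off2 h hw o2) (by
      rw [e2]
      have := D.off h o1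
      rwa [show z + (y - z) * w + (y - z) = y + (y - z) * w by ring] at this)
    rwa [e2] at this
  set r := z + (y - z) * w ^ 2 with hr
  set t := 2 * z - y with ht
  have dt : dist t z = 1 := by
    rw [dist_eq_norm, ht, show 2 * z - y - z = -(y - z) by ring, norm_neg, hn]
  have dtr : dist t r = 1 := by
    rw [dist_eq_norm, ht, hr,
      show 2 * z - y - (z + (y - z) * w ^ 2) = -((y - z) * w) by linear_combination -(y - z) * hw,
      norm_neg, norm_mul, hn, hwn, one_mul]
  -- `t` on the circle about `z`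
  have f1 : Fl T z t B := by
    have := D.fl_rot h hw o2 (D.fl2 h hw o1)
    rwa [show z + (r - z) * w = t by rw [hr, ht]; linear_combination (y - z) * (w + 1) * hw] at this
  have hBt : B ⊆ T t := D.fl_mem h (D.off_y' h) f1
  -- `t` on the circle about `r`
  have f2 : Fl T r t A := by
    have := Dr.symm.fl_rot h hw' (Dr.symm.off_y h) (Dr.symm.fl_y h)
    rwa [show r + (z - r) * (1 - w) = t by
      rw [hr, ht]; linear_combination (y - z) * (w + 1) * hw] at this
  have o3 : OffS T r t := by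
    -- direction `- (y - z) w` at `z`
    have h1 := Ds.off_y' h
    have h2 := D.symm.off h h1
    have h3 := Dr.off h h2
    rwa [show 2 * y - (y + (y - z) * w) + (z - y) + (r - z) = t by
      rw [hr, ht]; linear_combination (y - z) * hw] at h3
  have hAt : A ⊆ T t := Dr.symm.fl_mem h o3 f2
  have hle : (T t).ncard ≤ 4 := by
    by_contra hcon
    obtain ⟨A', hA'⟩ := hH3 t (by rw [dt]; norm_num) (by omega)
    rw [hA'.card] at hcon
    omega
  have hTt := D.union hle hAt hBt
  obtain ⟨At, hAt'⟩ := hH3 t (by rw [dt]; norm_num) (by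
    rw [hTt, Set.ncard_union_eq ((D.dis.mono_right D.hz.sub).symm) (Set.toFinite _)
      (Set.toFinite _), D.hz.cardA, D.hy.cardA])
  have hne : At ≠ A := Dr.symm.tri h dtr dt hAt'
  obtain ⟨m, hm, hmev⟩ := hside
  obtain ⟨m', hm', hmm'⟩ : ∃ m' ∈ T z \ A, ∀ i ∈ T z \ A, i = m ∨ i = m' := by
    obtain ⟨a, b, hab, hC⟩ := Set.ncard_eq_two.1 D.hz.cardC
    rw [hC] at hm ⊢
    rcases hm with rfl | hm
    · exact ⟨b, by simp, fun i hi => hi⟩
    · have hm : m = b := hm
      subst hm
      exact ⟨a, by simp, fun i hi => hi.symm⟩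
  -- the circle about `t` carries `m'` near `z`
  have key : ∀ᶠ q in 𝓝[sphere t 1] z, m' ∈ T q := by
    filter_upwards [mem_nhdsWithin_of_mem_nhds hmev, mem_nhdsWithin_of_mem_nhds (h.nhd z),
      self_mem_nhdsWithin] with q h1 h2 h3
    by_cases hqz : q = z
    · rw [hqz]; exact hm'.1
    have h3 : dist q t = 1 := h3
    have h4 : 1 < dist q y := by
      have h5 : dist q t ^ 2 + dist q y ^ 2 = 2 * dist q z ^ 2 + 2 := by
        have h6 := parallelogram_law_with_norm ℝ (q - z) (y - z)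
        rw [show q - z + (y - z) = q - t by rw [ht]; ring,
          show q - z - (y - z) = q - y by ring, ← dist_eq_norm, ← dist_eq_norm, ← dist_eq_norm,
          hn] at h6
        nlinarith
      have h6 : 0 < dist q z := dist_pos.2 hqz
      rw [h3] at h5
      nlinarith [dist_nonneg (x := q) (y := y)]
    have h5 := h1 h4
    by_contra hcon
    have h6 : T q ⊆ A := by
      intro i hi
      by_contra hiA
      rcases hmm' i ⟨h2 hi, hiA⟩ with rfl | rfl
      · exact h5 hi
      · exact hcon hi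
    have h7 := hAt'.h1 q h3 (h6.trans (by rw [hTt]; exact subset_union_left))
    exact hne (Set.eq_of_subset_of_ncard_le (h7.trans h6) (by rw [hAt'.cardA, D.hz.cardA])
      (Set.toFinite _))
  have hmr : m' ∈ T r := by
    have : m' ∈ T r \ B := by rw [← Dr.C]; exact hm'
    exact this.1
  rcases h.wp (by rw [dist_comm]; exact dt) key (by rw [dist_comm]; exact Dr.d) hmr with h1 | h1
  · have h2 : (y - z) * w = 0 := by
      rw [hr, ht] at h1; linear_combination h1 - (y - z) * hw
    rcases mul_eq_zero.1 h2 with h3 | h3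
    · exact hyz h3
    · exact w0 h3
  · have h2 : (y - z) * (w - 2) = 0 := by
      rw [hr, ht] at h1; linear_combination h1 - (y - z) * hw
    rcases mul_eq_zero.1 h2 with h3 | h3
    · exact hyz h3
    · exact w2 (by linear_combination h3)

end DS

end Vale.Agent.P032.Six
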